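import Vale.Agent.P171.Bridge

open Filter Topology Vale.Agent.P171

namespace Vale.Agent.Results.P171.PhaseTransition

/-- A bounded continuous stable tempered radial pair potential in three dimensions whose pressure
is not differentiable in the activity. -/
theorem result : ∃ φ : ℝ → ℝ, Continuous φ ∧ (∃ M : ℝ, ∀ r, |φ r| ≤ M) ∧
    (∃ B : ℝ, ∀ (N : ℕ) (x : Fin N → EuclideanSpace ℝ (Fin 3)), -B * N ≤ energy φ x) ∧
    (∃ C ε R₀ : ℝ, 0 < C ∧ 0 < ε ∧ 0 < R₀ ∧ ∀ r, R₀ ≤ r → |φ r| ≤ C * r ^ (-3 - ε)) ∧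
    ∃ β : ℝ, 0 < β ∧ ∃ P : ℝ → ℝ,
      (∀ z : ℝ, 0 < z → (∀ L : ℝ, 0 ≤ L → Summable fun N : ℕ => z ^ N * canonicalZ φ β L N) ∧
        Tendsto (fun L : ℝ => Real.log (∑' N : ℕ, z ^ N * canonicalZ φ β L N) / L ^ 3) atTop
          (𝓝 (P z))) ∧
      ∃ z₀ : ℝ, 0 < z₀ ∧ ¬DifferentiableAt ℝ P z₀ := by
  obtain ⟨a, R, A, ha, hR, hs, hs', hA, x, hx⟩ := exists_seq
  have p := v1_pos
  let φ : ℝ → ℝ := fun r => 2 * (A * Jk 1 r - Psi a R r)
  have e : (ham A fun x y => Psi a R ‖x - y‖) = fun x y => -(φ ‖x - y‖) / 2 := by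
    funext x y
    simp only [ham, φ, jk_radial]
    ring
  have G := (adm_Psi ha hR hs).good (A := A) (by linarith)
  rw [e] at G hx
  have hφ : Continuous φ :=
    continuous_const.mul ((continuous_const.mul (Jk_cont 1)).sub (Psi_cont ha hR hs))
  refine ⟨φ, hφ, ⟨2 * (|A| * (2 * (1 ^ 3 * v1))⁻¹ + ∑' k, a k * (2 * v1)⁻¹), fun r => ?_⟩,
    ⟨φ 0 / 2, fun N x => ?_⟩, ⟨2 * ((∑' k, a k * R k ^ (1 / 36 : ℝ)) *
      (2 ^ (3 + 1 / 36 : ℝ) / (2 * v1))) + 1, 1 / 36, 2, ?_, by norm_num, two_pos, fun r hr => ?_⟩,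
    1, one_pos, fun z => pr (fun x y => -(φ ‖x - y‖) / 2) (Real.log z + φ 0 / 2),
    fun z hz => G.pressure hφ hz, Real.exp (x - φ 0 / 2), Real.exp_pos _, fun hd => hx ?_⟩
  · rw [abs_mul, abs_two]
    refine mul_le_mul_of_nonneg_left ((abs_sub _ _).trans (add_le_add ?_ ?_)) zero_le_two
    · rw [abs_mul, abs_of_nonneg (a := Jk 1 r) (jk_nonneg ..)]
      exact mul_le_mul_of_nonneg_left (jk_le one_pos _ _) (abs_nonneg A)
    · exact tsum_of_norm_bounded (hs.mul_right _).hasSum fun k => Jk_bound ha hR k r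
  · linarith [G.stab (List.ofFn x), D2_energy φ x]
  · have : 0 ≤ ∑' k, a k * R k ^ (1 / 36 : ℝ) :=
      tsum_nonneg fun k => mul_nonneg (ha k).le (Real.rpow_nonneg (by linarith [hR k]) _)
    positivity
  · have r0 : 0 < r := by linarith
    have := tsum_of_norm_bounded (f := fun k => a k * Jk (R k) r) (hs'.hasSum.mul_right
      (2 ^ (3 + 1 / 36 : ℝ) / (2 * v1) * r ^ (-3 - 1 / 36 : ℝ))) fun k => by
        rw [Real.norm_of_nonneg (r := a k * Jk (R k) r) (mul_nonneg (ha k).le (jk_nonneg ..)),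
          mul_assoc]
        exact mul_le_mul_of_nonneg_left (Jk_decay (by linarith [hR k]) r0 (by norm_num)) (ha k).le
    simp only [φ]
    rw [Jk_zero r0.le (by linarith), mul_zero, zero_sub, abs_mul, abs_two, abs_neg]
    rw [Real.norm_eq_abs] at this
    have := Real.rpow_pos_of_pos r0 (-3 - 1 / 36)
    unfold Psi
    linarith
  · have := hd.comp x (f := fun y => Real.exp (y - φ 0 / 2)) (by fun_prop)
    simpa [Function.comp_def] using this

end Vale.Agent.Results.P171.PhaseTransition
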